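import Vale.Agent.P273.H595.Nat
import Vale.Agent.P273.H787.GPHOL

/-!
GP-HOLR on the natural set: the half periods `b ↦ P k B b (b j)` are analytic where the root `j` is
simple (the other labels may coincide).
-/

open Complex Set Filter Topology MeasureTheory
open scoped ContDiff

namespace Vale.Agent.P273.H595

open H857 H787.GP

noncomputable section

theorem norm_sq_geR {B : Finset (Fin 6)} {b : C6} {z : ℂ} {t c : ℝ} {j : Fin 6} (hc : 0 < c)
    (ht : 0 ≤ t) (h1 : t ≤ ‖z - b j‖) (h : ∀ l, l ≠ j → c * (1 + t) ≤ ‖z - b l‖) :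
    Real.sqrt (t * c ^ 5) * (1 + t) ^ 2 ≤ ‖H857.sq B b z‖ := by
  have e1 : ‖H857.sq B b z‖ * ‖H857.sq B b z‖ = ‖z - b j‖ * ∏ l ∈ Finset.univ.erase j, ‖z - b l‖ := by
    rw [← norm_mul, sq_mul_self, norm_prod]
    exact (Finset.mul_prod_erase _ (fun l => ‖z - b l‖) (Finset.mem_univ j)).symm
  have e2 : (c * (1 + t)) ^ 5 ≤ ∏ l ∈ Finset.univ.erase j, ‖z - b l‖ := by
    have h3 : ∏ _l ∈ Finset.univ.erase j, (c * (1 + t)) ≤ ∏ l ∈ Finset.univ.erase j, ‖z - b l‖ :=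
      Finset.prod_le_prod (fun _ _ => by positivity) fun l hl => h l (Finset.ne_of_mem_erase hl)
    rw [Finset.prod_const, Finset.card_erase_of_mem (Finset.mem_univ j), Finset.card_univ,
      Fintype.card_fin] at h3
    exact h3
  have e3 : (Real.sqrt (t * c ^ 5) * (1 + t) ^ 2) * (Real.sqrt (t * c ^ 5) * (1 + t) ^ 2) ≤
      ‖H857.sq B b z‖ * ‖H857.sq B b z‖ := by
    rw [e1]
    have h0 : 0 ≤ t * c ^ 5 := by positivity
    calc (Real.sqrt (t * c ^ 5) * (1 + t) ^ 2) * (Real.sqrt (t * c ^ 5) * (1 + t) ^ 2)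
        = (Real.sqrt (t * c ^ 5) * Real.sqrt (t * c ^ 5)) * (1 + t) ^ 4 := by ring
      _ = t * c ^ 5 * (1 + t) ^ 4 := by rw [Real.mul_self_sqrt h0]
      _ ≤ t * c ^ 5 * (1 + t) ^ 5 := by
          refine mul_le_mul_of_nonneg_left ?_ h0
          exact pow_le_pow_right₀ (by linarith) (by norm_num)
      _ = t * (c * (1 + t)) ^ 5 := by ring
      _ ≤ _ := mul_le_mul h1 e2 (by positivity) (norm_nonneg _)
  exact abs_le_of_sq_le_sq' (by nlinarith) (norm_nonneg _) |>.2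

theorem integrable_boundR (A : ℝ) :
    Integrable (fun t : ℝ => A * (t ^ (-(1 / 2) : ℝ) * (1 + t)⁻¹)) (volume.restrict (Ioi 0)) := by
  refine Integrable.const_mul ?_ A
  have hcont : ContinuousOn (fun t : ℝ => t ^ (-(1 / 2) : ℝ) * (1 + t)⁻¹) (Ioi 0) := by
    intro t ht
    have h1 : ContinuousAt (fun t : ℝ => t ^ (-(1 / 2) : ℝ)) t :=
      Real.continuousAt_rpow_const _ _ (Or.inl (ne_of_gt ht))
    have h2 : ContinuousAt (fun t : ℝ => (1 + t)⁻¹) t := by
      refine ContinuousAt.inv₀ (by fun_prop) ?_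
      have : (0 : ℝ) < t := ht
      positivity
    exact (h1.mul h2).continuousWithinAt
  have hu : Ioi (0 : ℝ) = Ioc 0 1 ∪ Ioi 1 := (Ioc_union_Ioi_eq_Ioi zero_le_one).symm
  have hA : IntegrableOn (fun t : ℝ => t ^ (-(1 / 2) : ℝ) * (1 + t)⁻¹) (Ioc 0 1) := by
    have h1 : IntegrableOn (fun t : ℝ => t ^ (-(1 / 2) : ℝ)) (Ioc 0 1) := by
      have h2 : IntervalIntegrable (fun t : ℝ => t ^ (-(1 / 2) : ℝ)) volume 0 1 :=
        intervalIntegral.intervalIntegrable_rpow' (by norm_num)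
      rwa [intervalIntegrable_iff_integrableOn_Ioc_of_le zero_le_one] at h2
    refine Integrable.mono' h1 ((hcont.mono Ioc_subset_Ioi_self).aestronglyMeasurable
      measurableSet_Ioc) ?_
    filter_upwards [ae_restrict_mem measurableSet_Ioc] with t ht
    have h3 : 0 ≤ t ^ (-(1 / 2) : ℝ) := Real.rpow_nonneg ht.1.le _
    have h4 : (1 + t)⁻¹ ≤ 1 := inv_le_one_of_one_le₀ (by linarith [ht.1])
    have h5 : 0 ≤ (1 + t)⁻¹ := inv_nonneg.2 (by linarith [ht.1])
    rw [Real.norm_of_nonneg (mul_nonneg h3 h5)]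
    nlinarith
  have hB : IntegrableOn (fun t : ℝ => t ^ (-(1 / 2) : ℝ) * (1 + t)⁻¹) (Ioi 1) := by
    have h1 : IntegrableOn (fun t : ℝ => t ^ (-(3 / 2) : ℝ)) (Ioi 1) :=
      integrableOn_Ioi_rpow_of_lt (by norm_num) one_pos
    refine Integrable.mono' h1 ((hcont.mono (Ioi_subset_Ioi zero_le_one)).aestronglyMeasurable
      measurableSet_Ioi) ?_
    filter_upwards [ae_restrict_mem measurableSet_Ioi] with t ht
    have ht0 : (0 : ℝ) < t := lt_trans one_pos ht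
    have h3 : 0 ≤ t ^ (-(1 / 2) : ℝ) := Real.rpow_nonneg ht0.le _
    have h5 : 0 ≤ (1 + t)⁻¹ := inv_nonneg.2 (by linarith)
    have h4 : (1 + t)⁻¹ ≤ t⁻¹ := inv_anti₀ ht0 (by linarith)
    rw [Real.norm_of_nonneg (mul_nonneg h3 h5)]
    have h6 : t ^ (-(3 / 2) : ℝ) = t ^ (-(1 / 2) : ℝ) * t⁻¹ := by
      rw [← Real.rpow_neg_one t, ← Real.rpow_add ht0]; norm_num
    rw [h6]
    exact mul_le_mul_of_nonneg_left h4 h3
  rw [hu]
  exact hA.union hB

variable {k : ℕ} {B : Finset (Fin 6)} {g : ℝ → ℝ} {j : Fin 6} {c : ℝ}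

theorem sub_root (b : C6) (j : Fin 6) (g : ℝ → ℝ) (t : ℝ) :
    gam (b j) g t - b j = t + g t * I := by simp [gam]

theorem le_norm_path (t s : ℝ) : t ≤ ‖(t : ℂ) + s * I‖ := by
  have h := Complex.abs_re_le_norm ((t : ℂ) + s * I)
  have e : ((t : ℂ) + s * I).re = t := by simp
  rw [e] at h
  exact (le_abs_self t).trans h

theorem bound_igdR (hk : k ≤ 1) {K : ℝ} (hK : ∀ t, |deriv g t| ≤ K)
    (hK' : ∀ t ≥ (0 : ℝ), |g t| ≤ K * t) {A : ℝ} {b : C6} (hc : 0 < c) (hA : ‖b j‖ + 1 + K ≤ A)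
    {t : ℝ} (ht : 0 < t) (h : ∀ l, l ≠ j → c * (1 + t) ≤ ‖gam (b j) g t - b l‖) :
    ‖igd k B b (b j) g t‖ ≤
      (A * (1 + K) / Real.sqrt (c ^ 5)) * (t ^ (-(1 / 2) : ℝ) * (1 + t)⁻¹) := by
  have hK0 : 0 ≤ K := (abs_nonneg _).trans (hK 0)
  have hA1 : 1 ≤ A := by linarith [norm_nonneg (b j)]
  have ht1 : 0 < 1 + t := by linarith
  have h1 : Real.sqrt (t * c ^ 5) * (1 + t) ^ 2 ≤ ‖H857.sq B b (gam (b j) g t)‖ :=
    norm_sq_geR hc ht.le (by rw [sub_root]; exact le_norm_path _ _) h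
  have h2 : ‖gam (b j) g t‖ ≤ A * (1 + t) := (norm_gam_le hK' (b j) ht.le).trans
    (mul_le_mul_of_nonneg_right hA ht1.le)
  have h3 : ‖gam (b j) g t‖ ^ k ≤ A * (1 + t) := by
    interval_cases k
    · rw [pow_zero]; nlinarith
    · rw [pow_one]; exact h2
  have h4 := norm_vel hK t
  have hs : 0 < Real.sqrt (t * c ^ 5) := Real.sqrt_pos.2 (by positivity)
  have hsc : 0 < Real.sqrt (c ^ 5) := Real.sqrt_pos.2 (by positivity)
  have hst : 0 < Real.sqrt t := Real.sqrt_pos.2 ht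
  unfold igd
  rw [norm_mul, norm_div, norm_pow]
  have e1 : t ^ (-(1 / 2) : ℝ) = (Real.sqrt t)⁻¹ := by
    rw [Real.rpow_neg ht.le, Real.sqrt_eq_rpow]
  have e2 : Real.sqrt (t * c ^ 5) = Real.sqrt t * Real.sqrt (c ^ 5) := Real.sqrt_mul ht.le _
  calc ‖gam (b j) g t‖ ^ k / ‖H857.sq B b (gam (b j) g t)‖ * ‖(1 : ℂ) + deriv g t * I‖
      ≤ A * (1 + t) / (Real.sqrt (t * c ^ 5) * (1 + t) ^ 2) * (1 + K) := by
        gcongr
    _ = (A * (1 + K) / Real.sqrt (c ^ 5)) * ((Real.sqrt t)⁻¹ * (1 + t)⁻¹) := by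
        rw [e2]; field_simp
    _ = _ := by rw [e1]

theorem meas_igdR {b : C6} (h : Adm B b (b j) g) :
    AEStronglyMeasurable (igd k B b (b j) g) (volume.restrict (Ioi 0)) := by
  refine ContinuousOn.aestronglyMeasurable ?_ measurableSet_Ioi
  intro t ht
  have h1 : ContinuousAt (gam (b j) g) t := (cont_gam h.1 (b j)).continuousAt
  have h2 : ContinuousAt (H857.sq B b) (gam (b j) g t) := by
    have h3 := (analyticAt_sq (h.mem_Dm ht)).continuousAt
    exact ContinuousAt.comp (f := fun z : ℂ => (b, z)) h3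
      (Continuous.prodMk_right b).continuousAt
  have h3 : ContinuousAt (fun t : ℝ => H857.sq B b (gam (b j) g t)) t :=
    ContinuousAt.comp (g := H857.sq B b) (f := gam (b j) g) (x := t) h2 h1
  have h4 : H857.sq B b (gam (b j) g t) ≠ 0 := sq_ne_zero fun l hl => by
    have := Sb_ne_zero (h.mem_Dm ht l)
    exact this (sub_eq_zero.2 hl)
  have h5 : Continuous (deriv g) := h.1.smooth.continuous_deriv (by simp)
  have h6 : ContinuousAt (fun t : ℝ => (1 : ℂ) + deriv g t * I) t := by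
    refine Continuous.continuousAt ?_
    fun_prop
  exact (((h1.pow k).div h3 h4).mul h6).continuousWithinAt

theorem diff_igdR (k : ℕ) {b : C6} (h : Adm B b (b j) g) {t : ℝ} (ht : 0 < t) :
    DifferentiableAt ℂ (fun b : C6 => igd k B b (b j) g t) b := by
  have h1 : gam (b j) g t ∈ Dm B b := h.mem_Dm ht
  have h0 : DifferentiableAt ℂ (fun b : C6 => b j) b :=
    (ContinuousLinearMap.proj (R := ℂ) (φ := fun _ : Fin 6 => ℂ) j).differentiableAt
  have h2 : DifferentiableAt ℂ (fun b : C6 => gam (b j) g t) b := by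
    unfold gam
    exact h0.add_const _
  have h3 : DifferentiableAt ℂ (fun b : C6 => H857.sq B b (gam (b j) g t)) b := by
    have h4 := (analyticAt_sq h1).differentiableAt
    exact DifferentiableAt.comp (f := fun b : C6 => (b, gam (b j) g t)) b h4
      (differentiableAt_id.prodMk h2)
  have h4 : H857.sq B b (gam (b j) g t) ≠ 0 := sq_ne_zero fun l hl =>
    Sb_ne_zero (h1 l) (sub_eq_zero.2 hl)
  have h5 : DifferentiableAt ℂ
      (fun b : C6 => gam (b j) g t ^ k * (H857.sq B b (gam (b j) g t))⁻¹) b :=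
    (h2.fun_pow k).fun_mul (h3.fun_inv h4)
  simp only [← div_eq_mul_inv] at h5
  exact h5.mul_const _

/-- **row GP-HOLR on the natural set** -/
theorem stmHOLRn (hE : StmEX) (hL : StmLOWR) (hI : StmINVn) : StmHOLRn := by
  intro k B b₀ j hk hne hOK
  obtain ⟨g, hg⟩ := hE B b₀ (b₀ j) hOK
  obtain ⟨ε, hε, c, hc, hl⟩ := hL B b₀ j g hg hne
  obtain ⟨K, hK0, hK, hK'⟩ := path_le hg.1
  set U : Set C6 := Metric.ball b₀ ε with hUdef
  have hU : ∀ b ∈ U, Adm B b (b j) g ∧ (∀ l, l ≠ j → b l ≠ b j) ∧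
      ∀ t ≥ (0 : ℝ), ∀ l, l ≠ j → c * (1 + t) ≤ ‖gam (b j) g t - b l‖ := fun b hb =>
    hl b (by rwa [← dist_eq_norm])
  have hd : DifferentiableOn ℂ
      (fun b : C6 => ∫ t, igd k B b (b j) g t ∂(volume.restrict (Ioi (0 : ℝ)))) U := by
    refine differentiableOn_integral_hol Metric.isOpen_ball
      (fun b hb => meas_igdR (hU b hb).1) ?_ ?_
    · filter_upwards [ae_restrict_mem measurableSet_Ioi] with t ht b hb
      exact (diff_igdR k (hU b hb).1 ht).differentiableWithinAt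
    · intro p hp
      obtain ⟨r, hr, hrU⟩ := Metric.isOpen_iff.1 Metric.isOpen_ball p hp
      refine ⟨r, hr, hrU, fun t => ((‖p j‖ + r + 1 + K) * (1 + K) / Real.sqrt (c ^ 5)) *
        (t ^ (-(1 / 2) : ℝ) * (1 + t)⁻¹), integrable_boundR _, ?_⟩
      filter_upwards [ae_restrict_mem measurableSet_Ioi] with t ht q hq
      refine bound_igdR hk hK hK' hc ?_ ht ((hU q (hrU hq)).2.2 t (le_of_lt ht))
      rw [Metric.mem_ball, dist_eq_norm] at hq
      have h1 : ‖q j - p j‖ ≤ ‖q - p‖ := norm_le_pi_norm (q - p) j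
      have h2 : ‖q j‖ ≤ ‖p j‖ + ‖q j - p j‖ := by
        have := norm_add_le (p j) (q j - p j)
        rwa [add_sub_cancel] at this
      linarith
  have h0 : b₀ ∈ U := Metric.mem_ball_self hε
  have h1 := (Vale.Agent.P268.analyticAt_of_differentiableOn Metric.isOpen_ball hd h0).neg
  refine h1.congr ?_
  filter_upwards [Metric.isOpen_ball.mem_nhds h0] with b hb
  exact (P_eq hI hk (SR.of_root (hU b hb).2.1) (hU b hb).1).symm

end

end Vale.Agent.P273.H595
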